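import Vale.Agent.P130.Final

open MeasureTheory Vale.Agent.P130

/-- For every prime `p` the group `⊕_ℕ ℤ/p` has a measure-preserving action on a standard
nonatomic probability space whose Koopman representation on the whole mean-zero space has simple
Haar spectrum. -/
theorem Vale.Agent.Results.P130.GroupHaar.result :
    ∀ p : ℕ, p.Prime →
      ∃ (X : Type) (_ : MeasurableSpace X) (_ : StandardBorelSpace X) (μ : Measure X)
        (_ : IsProbabilityMeasure μ) (T : (ℕ →₀ ZMod p) → X → X),
        (∀ x, μ {x} = 0) ∧ IsMPAction μ T ∧ SimpleHaarSpectrum μ T := by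
  intro p hp
  haveI : Fact p.Prime := ⟨hp⟩
  exact main p
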